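import Vale.Agent.P086.Main

theorem Vale.Agent.Results.P086.Iso34.result :
    Vale.Agent.P086.VNIso (Vale.Agent.P086.groupVN (FreeGroup (Fin 3)))
      (Vale.Agent.P086.groupVN (FreeGroup (Fin 4))) :=
  Vale.Agent.P086.iso34
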